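import Vale.Agent.Lib.P154.Defs
import Mathlib.Analysis.SpecialFunctions.Exp
import Mathlib.Topology.Algebra.InfiniteSum.Real

/-!
The broadcasting process of the Potts channel on the Galton-Watson tree with Poisson offspring.
-/

namespace Vale.Agent.Lib.P154

namespace PS

/-- The Poisson weights: the probability of `k` children when the mean is `d`. -/
noncomputable def poisWeight (d : ℝ) (k : ℕ) : ℝ := Real.exp (-d) * d ^ k / (k.factorial : ℝ)

/-- What the observer sees of the subtree of a vertex, looking `n` generations below it: for `n = 0`
the colour of the vertex; for `n + 1` the number of children of the vertex and, for each child in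
turn, what is seen of the subtree of that child, `n` generations below it. So this records the tree
down to generation `n` (with an arbitrary order on the children) and the colours in generation `n`.
If the tree dies out before generation `n`, then no colour is recorded. -/
def GWObs (q : ℕ) : ℕ → Type
  | 0 => Fin q
  | n + 1 => Σ k : ℕ, (Fin k → GWObs q n)

/-- The colour recorded at depth `0`. -/
def GWObs.colour {q : ℕ} (s : GWObs q 0) : Fin q := s

/-- The number of children recorded. -/
def GWObs.count {q n : ℕ} (s : GWObs q (n + 1)) : ℕ := Sigma.fst s

/-- The record of a child. -/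
def GWObs.child {q n : ℕ} (s : GWObs q (n + 1)) : Fin s.count → GWObs q n := Sigma.snd s

/-- `gwLik q d lam n i s` is the probability of the record `s` given that the vertex has colour
`i`: the vertex has `k` children with probability `poisWeight d k`; given this and the colour of the
vertex, the subtrees of the children are independent, and the colour of a child is obtained from the
colour of the vertex through the channel. -/
noncomputable def gwLik (q : ℕ) (d lam : ℝ) : (n : ℕ) → Fin q → GWObs q n → ℝ
  | 0, i, s => if s.colour = i then 1 else 0
  | n + 1, i, s => poisWeight d s.count *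
      ∏ c : Fin s.count, ∑ j : Fin q, pottsChannel q lam i j * gwLik q d lam n j (s.child c)

/-- The probability of the record `s` when the root colour is uniform. -/
noncomputable def gwProb (q : ℕ) (d lam : ℝ) (n : ℕ) (s : GWObs q n) : ℝ :=
  ∑ i : Fin q, (1 / (q : ℝ)) * gwLik q d lam n i s

/-- The conditional probability that the root has colour `i` given the record `s`. -/
noncomputable def gwPosterior (q : ℕ) (d lam : ℝ) (n : ℕ) (s : GWObs q n) (i : Fin q) : ℝ :=
  (1 / (q : ℝ)) * gwLik q d lam n i s / gwProb q d lam n s

/-- The reconstruction quantity `a_n = E[ (1/2) ∑ i, |Pr(σ_ρ = i | T, σ_{L_n}) - 1/q| ]` on the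
Galton-Watson tree with Poisson(d) offspring: a sum over the countably many records. -/
noncomputable def gwGap (q : ℕ) (d lam : ℝ) (n : ℕ) : ℝ :=
  ∑' s : GWObs q n, gwProb q d lam n s *
    ((1 / 2) * ∑ i : Fin q, |gwPosterior q d lam n s i - 1 / (q : ℝ)|)

end PS

end Vale.Agent.Lib.P154
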