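import Vale.Agent.Lib.P154.PS.Defs
import Mathlib.Analysis.SpecialFunctions.Exponential
import Vale.Agent.Lib.P154.ST.Lyap

/-!
The framework for the Galton-Watson tree: total mass, the law of the message, tensorization.
-/

namespace Vale.Agent.Lib.P154

namespace PS

open ST Filter Topology

/-! ### Sums over records -/

section sums

lemma hasSum_exp_real (x : ℝ) : HasSum (fun n : ℕ => x ^ n / (n.factorial : ℝ)) (Real.exp x) := by
  have := NormedSpace.expSeries_div_hasSum_exp (𝔸 := ℝ) x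
  simpa [Real.exp_eq_exp_ℝ] using this

lemma poisWeight_nonneg {d : ℝ} (hd : 0 ≤ d) (k : ℕ) : 0 ≤ poisWeight d k := by
  unfold poisWeight
  positivity

lemma hasSum_pi_prod {S : Type} {h : S → ℝ} {E : ℝ} (h0 : ∀ x, 0 ≤ h x) (hs : HasSum h E) :
    ∀ k : ℕ, HasSum (fun f : Fin k → S => ∏ c, h (f c)) (E ^ k) := by
  intro k
  induction k with
  | zero =>
    have := hasSum_unique (fun f : Fin 0 → S => ∏ c, h (f c))
    simpa using this
  | succ k ih =>
    have hE : 0 ≤ E := hs.nonneg h0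
    have hg0 : (0 : (Fin k → S) → ℝ) ≤ fun f => ∏ c, h (f c) :=
      fun f => Finset.prod_nonneg fun c _ => h0 _
    have hsum : Summable (fun x : S × (Fin k → S) => h x.1 * ∏ c, h (x.2 c)) :=
      Summable.mul_of_nonneg (f := h) (g := fun f : Fin k → S => ∏ c, h (f c)) hs.summable ih.summable h0 hg0
    have h3 := HasSum.mul hs ih hsum
    have e := (Fin.consEquiv (fun _ : Fin (k + 1) => S)).hasSum_iff
      (f := fun f : Fin (k + 1) → S => ∏ c, h (f c)) (a := E ^ (k + 1))
    rw [← e]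
    have e2 : (fun f : Fin (k + 1) → S => ∏ c, h (f c)) ∘ (Fin.consEquiv (fun _ : Fin (k + 1) => S))
        = fun x : S × (Fin k → S) => h x.1 * ∏ c, h (x.2 c) := by
      funext x
      simp [Fin.consEquiv, Fin.prod_univ_succ]
    rw [e2, pow_succ, mul_comm]
    exact h3

/-- The sum over records of one more generation, from the sum over records of a child. -/
lemma hasSum_sigma_pois {S : Type} {d : ℝ} (hd : 0 ≤ d) {h : S → ℝ} {E : ℝ} (h0 : ∀ x, 0 ≤ h x)
    (hs : HasSum h E) :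
    HasSum (fun s : (Σ k : ℕ, (Fin k → S)) => poisWeight d s.1 * ∏ c, h (s.2 c)) (Real.exp (d * (E - 1))) := by
  have hE : 0 ≤ E := hs.nonneg h0
  have hk : ∀ k : ℕ, HasSum (fun f : Fin k → S => poisWeight d k * ∏ c, h (f c)) (poisWeight d k * E ^ k) :=
    fun k => (hasSum_pi_prod h0 hs k).mul_left _
  have hw : HasSum (fun k : ℕ => poisWeight d k * E ^ k) (Real.exp (d * (E - 1))) := by
    have h1 := (hasSum_exp_real (d * E)).mul_left (Real.exp (-d))
    have e1 : Real.exp (-d) * Real.exp (d * E) = Real.exp (d * (E - 1)) := by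
      rw [← Real.exp_add]; ring_nf
    rw [e1] at h1
    have e2 : (fun k : ℕ => poisWeight d k * E ^ k) = fun k : ℕ => Real.exp (-d) * ((d * E) ^ k / (k.factorial : ℝ)) := by
      funext k
      unfold poisWeight
      rw [mul_pow]
      ring
    rw [e2]
    exact h1
  have hnn : ∀ s : (Σ k : ℕ, (Fin k → S)), 0 ≤ poisWeight d s.1 * ∏ c, h (s.2 c) := fun s =>
    mul_nonneg (poisWeight_nonneg hd _) (Finset.prod_nonneg fun c _ => h0 _)
  have hsm : Summable (fun s : (Σ k : ℕ, (Fin k → S)) => poisWeight d s.1 * ∏ c, h (s.2 c)) := by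
    refine (summable_sigma_of_nonneg hnn).2 ⟨fun k => (hk k).summable, ?_⟩
    have e3 : (fun k : ℕ => ∑' f : Fin k → S, poisWeight d k * ∏ c, h (f c)) = fun k => poisWeight d k * E ^ k := by
      funext k
      exact (hk k).tsum_eq
    show Summable (fun k : ℕ => ∑' f : Fin k → S, poisWeight d k * ∏ c, h (f c))
    rw [e3]
    exact hw.summable
  exact HasSum.sigma_of_hasSum (f := fun s : (Σ k : ℕ, (Fin k → S)) => poisWeight d s.1 * ∏ c, h (s.2 c))
    (g := fun k : ℕ => poisWeight d k * E ^ k) hw hk hsm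

end sums

/-! ### The likelihoods -/

section lik

variable {d lam : ℝ}

lemma gw_nonneg (hd : 0 ≤ d) (h1 : -(1 / 2) ≤ lam) (h2 : lam ≤ 1) :
    ∀ (n : ℕ) (i : Fin 3) (s : GWObs 3 n), 0 ≤ gwLik 3 d lam n i s := by
  intro n
  induction n with
  | zero =>
    intro i s
    show 0 ≤ (if s.colour = i then (1 : ℝ) else 0)
    split_ifs <;> norm_num
  | succ n ih =>
    intro i s
    show 0 ≤ poisWeight d s.count * ∏ c : Fin s.count, ∑ j : Fin 3, pottsChannel 3 lam i j * gwLik 3 d lam n j (s.child c)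
    apply mul_nonneg (poisWeight_nonneg hd _)
    apply Finset.prod_nonneg
    intro c _
    apply Finset.sum_nonneg
    intro j _
    exact mul_nonneg (channel3_nonneg h1 h2 i j) (ih j (s.child c))

/-- The value of the likelihood on a pair. -/
lemma gw_succ (n : ℕ) (i : Fin 3) (k : ℕ) (f : Fin k → GWObs 3 n) :
    gwLik 3 d lam (n + 1) i (⟨k, f⟩ : Σ k : ℕ, (Fin k → GWObs 3 n))
      = poisWeight d k * ∏ c : Fin k, ∑ j : Fin 3, pottsChannel 3 lam i j * gwLik 3 d lam n j (f c) := rfl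

lemma gw_mass (hd : 0 ≤ d) (h1 : -(1 / 2) ≤ lam) (h2 : lam ≤ 1) :
    ∀ (n : ℕ) (i : Fin 3), HasSum (gwLik 3 d lam n i) 1 := by
  intro n
  induction n with
  | zero =>
    intro i
    have e : (∑ s : Fin 3, (if s = i then (1 : ℝ) else 0)) = 1 := by simp
    have := hasSum_fintype (fun s : Fin 3 => if s = i then (1 : ℝ) else 0)
    rw [e] at this
    exact this
  | succ n ih =>
    intro i
    have hh : HasSum (fun x : GWObs 3 n => ∑ j : Fin 3, pottsChannel 3 lam i j * gwLik 3 d lam n j x) 1 := by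
      have := hasSum_sum (s := Finset.univ) (fun j _ => (ih j).mul_left (pottsChannel 3 lam i j))
      simp only [mul_one, channel3_row] at this
      exact this
    have h0 : ∀ x : GWObs 3 n, 0 ≤ ∑ j : Fin 3, pottsChannel 3 lam i j * gwLik 3 d lam n j x := fun x =>
      Finset.sum_nonneg fun j _ => mul_nonneg (channel3_nonneg h1 h2 i j) (gw_nonneg hd h1 h2 n j x)
    have := hasSum_sigma_pois hd h0 hh
    have e : Real.exp (d * ((1 : ℝ) - 1)) = 1 := by simp
    rw [e] at this
    exact this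

/-- The probability of a record at depth `n`. -/
noncomputable def Zg (d lam : ℝ) (n : ℕ) (s : GWObs 3 n) : ℝ :=
  (1 / 3) * ∑ i : Fin 3, gwLik 3 d lam n i s

/-- The posterior of the root colour, centered and scaled, with value zero on records of
probability zero. -/
noncomputable def msgg (d lam : ℝ) (n : ℕ) (s : GWObs 3 n) (i : Fin 3) : ℝ :=
  if Zg d lam n s = 0 then 0 else gwLik 3 d lam n i s / Zg d lam n s - 1

lemma gwProb_eq (n : ℕ) (s : GWObs 3 n) : gwProb 3 d lam n s = Zg d lam n s := by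
  unfold gwProb Zg
  rw [Finset.mul_sum]
  norm_num

lemma Zg_nonneg (hd : 0 ≤ d) (h1 : -(1 / 2) ≤ lam) (h2 : lam ≤ 1) (n : ℕ) (s : GWObs 3 n) :
    0 ≤ Zg d lam n s := by
  unfold Zg
  apply mul_nonneg (by norm_num)
  exact Finset.sum_nonneg fun i _ => gw_nonneg hd h1 h2 n i s

lemma Zg_mass (hd : 0 ≤ d) (h1 : -(1 / 2) ≤ lam) (h2 : lam ≤ 1) (n : ℕ) :
    HasSum (Zg d lam n) 1 := by
  have := hasSum_sum (s := Finset.univ) (fun j _ => gw_mass hd h1 h2 n j)
  have h3 := this.mul_left (1 / 3 : ℝ)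
  have e2 : (1 / 3 : ℝ) * ∑ i : Fin 3, (1 : ℝ) = 1 := by simp
  rw [e2] at h3
  exact h3

lemma lik_zero_of_Zg (hd : 0 ≤ d) (h1 : -(1 / 2) ≤ lam) (h2 : lam ≤ 1) {n : ℕ} {s : GWObs 3 n}
    (h : Zg d lam n s = 0) (i : Fin 3) : gwLik 3 d lam n i s = 0 := by
  unfold Zg at h
  have h3 : ∑ i : Fin 3, gwLik 3 d lam n i s = 0 := by linarith
  exact (Finset.sum_eq_zero_iff_of_nonneg (fun i _ => gw_nonneg hd h1 h2 n i s)).1 h3 i (Finset.mem_univ _)

lemma gw_eq (hd : 0 ≤ d) (h1 : -(1 / 2) ≤ lam) (h2 : lam ≤ 1) (n : ℕ) (s : GWObs 3 n) (i : Fin 3) :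
    gwLik 3 d lam n i s = Zg d lam n s * (1 + msgg d lam n s i) := by
  by_cases h : Zg d lam n s = 0
  · rw [lik_zero_of_Zg hd h1 h2 h i, h, zero_mul]
  · unfold msgg
    rw [if_neg h]
    field_simp
    ring

lemma msgg_sum (n : ℕ) (s : GWObs 3 n) :
    msgg d lam n s 0 + msgg d lam n s 1 + msgg d lam n s 2 = 0 := by
  by_cases h : Zg d lam n s = 0
  · simp [msgg, h]
  · simp only [msgg, if_neg h]
    have e : Zg d lam n s = (1 / 3) * (gwLik 3 d lam n 0 s + gwLik 3 d lam n 1 s + gwLik 3 d lam n 2 s) := by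
      unfold Zg; rw [Fin.sum_univ_three]
    field_simp
    rw [e]; ring

lemma msgg_ge (hd : 0 ≤ d) (h1 : -(1 / 2) ≤ lam) (h2 : lam ≤ 1) (n : ℕ) (s : GWObs 3 n) (i : Fin 3) :
    -1 ≤ msgg d lam n s i := by
  by_cases h : Zg d lam n s = 0
  · simp [msgg, h]
  · simp only [msgg, if_neg h]
    have hz : 0 < Zg d lam n s := lt_of_le_of_ne (Zg_nonneg hd h1 h2 n s) (Ne.symm h)
    have : 0 ≤ gwLik 3 d lam n i s / Zg d lam n s := div_nonneg (gw_nonneg hd h1 h2 n i s) hz.le
    linarith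

lemma gwPosterior_eq (n : ℕ) (s : GWObs 3 n) (i : Fin 3) (h : Zg d lam n s ≠ 0) :
    gwPosterior 3 d lam n s i - 1 / ((3 : ℕ) : ℝ) = msgg d lam n s i / 3 := by
  unfold gwPosterior
  rw [gwProb_eq]
  simp only [msgg, if_neg h]
  push_cast
  field_simp

lemma msgg_InT (hd : 0 ≤ d) (h1 : -(1 / 2) ≤ lam) (h2 : lam ≤ 1) (n : ℕ) (s : GWObs 3 n) :
    InT (msgg d lam n s 0) (msgg d lam n s 1) (msgg d lam n s 2) :=
  ⟨msgg_sum n s, msgg_ge hd h1 h2 n s 0, msgg_ge hd h1 h2 n s 1, msgg_ge hd h1 h2 n s 2⟩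

end lik

/-! ### Recolouring -/

section recolour

variable {d lam : ℝ}

/-- Recolouring by a permutation of the colours. -/
def recol (g : Equiv.Perm (Fin 3)) : (n : ℕ) → GWObs 3 n → GWObs 3 n
  | 0, s => (g s.colour : Fin 3)
  | n + 1, s => (⟨s.count, fun c => recol g n (s.child c)⟩ : Σ k : ℕ, (Fin k → GWObs 3 n))

lemma recol_recol (g h : Equiv.Perm (Fin 3)) (n : ℕ) (s : GWObs 3 n) :
    recol g n (recol h n s) = recol (g * h) n s := by
  induction n with
  | zero => rfl
  | succ n ih =>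
    show (⟨s.count, fun c => recol g n (recol h n (s.child c))⟩ : Σ k : ℕ, (Fin k → GWObs 3 n))
      = ⟨s.count, fun c => recol (g * h) n (s.child c)⟩
    congr 1
    funext c
    exact ih _

lemma recol_one (n : ℕ) (s : GWObs 3 n) : recol 1 n s = s := by
  induction n with
  | zero => rfl
  | succ n ih =>
    show (⟨s.count, fun c => recol 1 n (s.child c)⟩ : Σ k : ℕ, (Fin k → GWObs 3 n)) = s
    have : (fun c => recol 1 n (s.child c)) = s.child := by
      funext c
      exact ih _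
    rw [this]
    rfl

/-- Recolouring as a bijection. -/
def recolEquiv (g : Equiv.Perm (Fin 3)) (n : ℕ) : GWObs 3 n ≃ GWObs 3 n where
  toFun := recol g n
  invFun := recol g⁻¹ n
  left_inv s := by rw [recol_recol]; simp [recol_one]
  right_inv s := by rw [recol_recol]; simp [recol_one]

lemma gw_recol (g : Equiv.Perm (Fin 3)) : ∀ (n : ℕ) (i : Fin 3) (s : GWObs 3 n),
    gwLik 3 d lam n (g i) (recol g n s) = gwLik 3 d lam n i s := by
  intro n
  induction n with
  | zero =>
    intro i s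
    show (if g s.colour = g i then (1 : ℝ) else 0) = if s.colour = i then (1 : ℝ) else 0
    simp
  | succ n ih =>
    intro i s
    show poisWeight d s.count * ∏ c : Fin s.count, ∑ j : Fin 3, pottsChannel 3 lam (g i) j * gwLik 3 d lam n j (recol g n (s.child c))
      = poisWeight d s.count * ∏ c : Fin s.count, ∑ j : Fin 3, pottsChannel 3 lam i j * gwLik 3 d lam n j (s.child c)
    congr 1
    apply Finset.prod_congr rfl
    intro c _
    rw [← Equiv.sum_comp g]
    apply Finset.sum_congr rfl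
    intro j _
    rw [channel3_perm, ih]

lemma Zg_recol (g : Equiv.Perm (Fin 3)) (n : ℕ) (s : GWObs 3 n) :
    Zg d lam n (recol g n s) = Zg d lam n s := by
  unfold Zg
  rw [← Equiv.sum_comp g]
  simp_rw [gw_recol]

lemma msgg_recol (g : Equiv.Perm (Fin 3)) (n : ℕ) (s : GWObs 3 n) (i : Fin 3) :
    msgg d lam n (recol g n s) (g i) = msgg d lam n s i := by
  unfold msgg
  rw [Zg_recol, gw_recol]

end recolour

end PS

end Vale.Agent.Lib.P154
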