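import Vale.Agent.Lib.P154.PS.Frame

/-!
The mean of a bounded function of the message on the Galton-Watson tree.
-/

namespace Vale.Agent.Lib.P154

namespace PS

open ST Filter Topology

/-- The functions bounded on the triangle. -/
def BddT (f : ℝ → ℝ → ℝ → ℝ) : Prop := ∃ C, ∀ u0 u1 u2, InT u0 u1 u2 → |f u0 u1 u2| ≤ C

section bdd

lemma BddT.const (a : ℝ) : BddT (fun _ _ _ => a) := ⟨|a|, fun _ _ _ _ => le_rfl⟩

lemma BddT.add {f g : ℝ → ℝ → ℝ → ℝ} (hf : BddT f) (hg : BddT g) :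
    BddT (fun a b c => f a b c + g a b c) := by
  obtain ⟨C, hC⟩ := hf
  obtain ⟨D, hD⟩ := hg
  exact ⟨C + D, fun a b c h => (abs_add_le _ _).trans (add_le_add (hC a b c h) (hD a b c h))⟩

lemma BddT.mul {f g : ℝ → ℝ → ℝ → ℝ} (hf : BddT f) (hg : BddT g) :
    BddT (fun a b c => f a b c * g a b c) := by
  obtain ⟨C, hC⟩ := hf
  obtain ⟨D, hD⟩ := hg
  refine ⟨C * D, fun a b c h => ?_⟩
  rw [abs_mul]
  exact mul_le_mul (hC a b c h) (hD a b c h) (abs_nonneg _) ((abs_nonneg _).trans (hC a b c h))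

lemma BddT.lin {f g : ℝ → ℝ → ℝ → ℝ} (hf : BddT f) (hg : BddT g) (a b c : ℝ) :
    BddT (fun u0 u1 u2 => a * f u0 u1 u2 + b * g u0 u1 u2 + c) :=
  ((BddT.mul (BddT.const a) hf).add (BddT.mul (BddT.const b) hg)).add (BddT.const c)

lemma BddT.sq {f : ℝ → ℝ → ℝ → ℝ} (hf : BddT f) : BddT (fun a b c => (f a b c) ^ 2) := by
  have := BddT.mul hf hf
  simpa [pow_two] using this

lemma BddT.swap01 {f : ℝ → ℝ → ℝ → ℝ} (hf : BddT f) : BddT (fun a b c => f b a c) := by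
  obtain ⟨C, hC⟩ := hf
  refine ⟨C, fun a b c h => hC _ _ _ ?_⟩
  obtain ⟨h0, h1, h2, h3⟩ := h
  exact ⟨by linarith, h2, h1, h3⟩

lemma BddT.swap12 {f : ℝ → ℝ → ℝ → ℝ} (hf : BddT f) : BddT (fun a b c => f a c b) := by
  obtain ⟨C, hC⟩ := hf
  refine ⟨C, fun a b c h => hC _ _ _ ?_⟩
  obtain ⟨h0, h1, h2, h3⟩ := h
  exact ⟨by linarith, h1, h3, h2⟩

lemma BddT.scale {f : ℝ → ℝ → ℝ → ℝ} (hf : BddT f) {lam : ℝ} (h1 : -(1 / 2) ≤ lam) (h2 : lam ≤ 1) :
    BddT (fun a b c => f (lam * a) (lam * b) (lam * c)) := by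
  obtain ⟨C, hC⟩ := hf
  exact ⟨C, fun a b c h => hC _ _ _ (InT_scale h1 h2 h)⟩

lemma rt_le_two {x : ℝ} (h0 : 0 ≤ x) (h1 : x ≤ 3) : rt x ≤ 2 := by
  by_contra hc
  have hc' : 2 < rt x := not_le.1 hc
  have : (2 : ℝ) ^ 9 < rt x ^ 9 := pow_lt_pow_left₀ hc' (by norm_num) (by norm_num)
  rw [rt_pow h0] at this
  norm_num at this
  linarith

lemma BddT.gk (k0 k1 k2 : ℕ) : BddT (Gk k0 k1 k2) := by
  refine ⟨2 ^ k0 * 2 ^ k1 * 2 ^ k2, fun a b c h => ?_⟩
  obtain ⟨hs, h0, h1, h2⟩ := h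
  have key : ∀ x : ℝ, -1 ≤ x → x ≤ 2 → |rt (1 + x)| ≤ 2 := by
    intro x hx hx2
    rw [abs_of_nonneg (rt_nonneg (by linarith))]
    exact rt_le_two (by linarith) (by linarith)
  have a0 := key a h0 (by linarith)
  have a1 := key b h1 (by linarith)
  have a2 := key c h2 (by linarith)
  unfold Gk mon
  rw [abs_mul, abs_mul, abs_pow, abs_pow, abs_pow]
  gcongr

lemma BddT.avg6 {h : ℝ → ℝ → ℝ → ℝ} (hh : BddT h) : BddT (avg6 h) := by
  have h1 := hh.swap12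
  have h2 := hh.swap01
  have h3 : BddT (fun a b c => h b c a) := h1.swap01
  have h4 : BddT (fun a b c => h c a b) := h2.swap12
  have h5 : BddT (fun a b c => h c b a) := h3.swap12
  exact BddT.mul (BddT.const (1 / 6)) ((((((hh.add h1).add h2).add h3).add h4).add h5))

lemma BddT.sq3 : BddT sq3 := by
  refine ⟨6, fun a b c h => ?_⟩
  rw [abs_of_nonneg (sq3_nonneg a b c)]
  exact sq3_le_six h.1 h.2.1 h.2.2.1 h.2.2.2

end bdd

section mean

variable {d lam : ℝ}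

/-- The mean of a function of the message at depth `n`. -/
noncomputable def Eg (d lam : ℝ) (n : ℕ) (f : ℝ → ℝ → ℝ → ℝ) : ℝ :=
  ∑' s : GWObs 3 n, Zg d lam n s * f (msgg d lam n s 0) (msgg d lam n s 1) (msgg d lam n s 2)

lemma summ (hd : 0 ≤ d) (h1 : -(1 / 2) ≤ lam) (h2 : lam ≤ 1) (n : ℕ) {f : ℝ → ℝ → ℝ → ℝ} (hf : BddT f) :
    Summable (fun s : GWObs 3 n => Zg d lam n s * f (msgg d lam n s 0) (msgg d lam n s 1) (msgg d lam n s 2)) := by
  obtain ⟨C, hC⟩ := hf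
  apply Summable.of_norm_bounded (g := fun s => Zg d lam n s * C) ((Zg_mass hd h1 h2 n).summable.mul_right C)
  intro s
  rw [Real.norm_eq_abs, abs_mul, abs_of_nonneg (Zg_nonneg hd h1 h2 n s)]
  exact mul_le_mul_of_nonneg_left (hC _ _ _ (msgg_InT hd h1 h2 n s)) (Zg_nonneg hd h1 h2 n s)

lemma Eg_lin (hd : 0 ≤ d) (h1 : -(1 / 2) ≤ lam) (h2 : lam ≤ 1) (n : ℕ) (a b c : ℝ) {f g : ℝ → ℝ → ℝ → ℝ}
    (hf : BddT f) (hg : BddT g) :
    Eg d lam n (fun u0 u1 u2 => a * f u0 u1 u2 + b * g u0 u1 u2 + c)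
      = a * Eg d lam n f + b * Eg d lam n g + c := by
  unfold Eg
  have s1 := (summ hd h1 h2 n hf).mul_left a
  have s2 := (summ hd h1 h2 n hg).mul_left b
  have s3 := (Zg_mass hd h1 h2 n).summable.mul_right c
  have e : ∀ s : GWObs 3 n, Zg d lam n s * (a * f (msgg d lam n s 0) (msgg d lam n s 1) (msgg d lam n s 2)
        + b * g (msgg d lam n s 0) (msgg d lam n s 1) (msgg d lam n s 2) + c)
      = a * (Zg d lam n s * f (msgg d lam n s 0) (msgg d lam n s 1) (msgg d lam n s 2))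
        + b * (Zg d lam n s * g (msgg d lam n s 0) (msgg d lam n s 1) (msgg d lam n s 2))
        + Zg d lam n s * c := by
    intro s; ring
  simp_rw [e]
  rw [(s1.add s2).tsum_add s3, s1.tsum_add s2, tsum_mul_left, tsum_mul_left, tsum_mul_right,
    (Zg_mass hd h1 h2 n).tsum_eq, one_mul]

lemma Eg_le (hd : 0 ≤ d) (h1 : -(1 / 2) ≤ lam) (h2 : lam ≤ 1) (n : ℕ) {f g : ℝ → ℝ → ℝ → ℝ}
    (hf : BddT f) (hg : BddT g) (h : ∀ u0 u1 u2, InT u0 u1 u2 → f u0 u1 u2 ≤ g u0 u1 u2) :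
    Eg d lam n f ≤ Eg d lam n g := by
  apply Summable.tsum_le_tsum _ (summ hd h1 h2 n hf) (summ hd h1 h2 n hg)
  intro s
  exact mul_le_mul_of_nonneg_left (h _ _ _ (msgg_InT hd h1 h2 n s)) (Zg_nonneg hd h1 h2 n s)

lemma Eg_nonneg (hd : 0 ≤ d) (h1 : -(1 / 2) ≤ lam) (h2 : lam ≤ 1) (n : ℕ) {f : ℝ → ℝ → ℝ → ℝ}
    (h : ∀ u0 u1 u2, InT u0 u1 u2 → 0 ≤ f u0 u1 u2) : 0 ≤ Eg d lam n f := by
  apply tsum_nonneg
  intro s
  exact mul_nonneg (Zg_nonneg hd h1 h2 n s) (h _ _ _ (msgg_InT hd h1 h2 n s))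

/-- Jensen's inequality for the square. -/
lemma Eg_sq_le (hd : 0 ≤ d) (h1 : -(1 / 2) ≤ lam) (h2 : lam ≤ 1) (n : ℕ) {f : ℝ → ℝ → ℝ → ℝ} (hf : BddT f) :
    (Eg d lam n f) ^ 2 ≤ Eg d lam n (fun u0 u1 u2 => (f u0 u1 u2) ^ 2) := by
  have hm : 0 ≤ Eg d lam n (fun u0 u1 u2 => (f u0 u1 u2 - Eg d lam n f) ^ 2) :=
    Eg_nonneg hd h1 h2 n (fun _ _ _ _ => sq_nonneg _)
  have e : Eg d lam n (fun u0 u1 u2 => (f u0 u1 u2 - Eg d lam n f) ^ 2)
      = Eg d lam n (fun u0 u1 u2 => (f u0 u1 u2) ^ 2) - 2 * (Eg d lam n f) * Eg d lam n f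
        + (Eg d lam n f) ^ 2 := by
    have := Eg_lin hd h1 h2 n 1 (-2 * Eg d lam n f) ((Eg d lam n f) ^ 2) hf.sq hf
    have e2 : (fun u0 u1 u2 => (f u0 u1 u2 - Eg d lam n f) ^ 2)
        = (fun u0 u1 u2 => 1 * (f u0 u1 u2) ^ 2
          + (-2 * Eg d lam n f) * f u0 u1 u2 + (Eg d lam n f) ^ 2) := by
      funext u0 u1 u2
      ring
    rw [e2, this]
    ring
  rw [e] at hm
  nlinarith

/-- The law of the message is invariant under permutations of the colours. -/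
lemma Eg_perm (g : Equiv.Perm (Fin 3)) (n : ℕ) (h : ℝ → ℝ → ℝ → ℝ) :
    ∑' s : GWObs 3 n, Zg d lam n s * h (msgg d lam n s (g 0)) (msgg d lam n s (g 1)) (msgg d lam n s (g 2))
      = Eg d lam n h := by
  unfold Eg
  rw [← Equiv.tsum_eq (recolEquiv g n)]
  apply tsum_congr
  intro s
  show Zg d lam n (recol g n s) * h (msgg d lam n (recol g n s) (g 0)) (msgg d lam n (recol g n s) (g 1))
      (msgg d lam n (recol g n s) (g 2)) = _
  rw [Zg_recol, msgg_recol, msgg_recol, msgg_recol]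

/-- The mean of a function of the message does not change by averaging over permutations. -/
lemma Eg_avg6 (hd : 0 ≤ d) (h1 : -(1 / 2) ≤ lam) (h2 : lam ≤ 1) (n : ℕ) {h : ℝ → ℝ → ℝ → ℝ} (hh : BddT h) :
    Eg d lam n (avg6 h) = Eg d lam n h := by
  have b1 := hh.swap12
  have b2 := hh.swap01
  have b3 : BddT (fun a b c => h b c a) := b1.swap01
  have b4 : BddT (fun a b c => h c a b) := b2.swap12
  have b5 : BddT (fun a b c => h c b a) := b3.swap12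
  have H1 : Eg d lam n (fun a b c => h a c b) = Eg d lam n h := by
    have := Eg_perm (d := d) (lam := lam) (Equiv.swap 1 2) n h
    have v0 : (Equiv.swap (1 : Fin 3) 2) 0 = 0 := by decide
    have v1 : (Equiv.swap (1 : Fin 3) 2) 1 = 2 := by decide
    have v2 : (Equiv.swap (1 : Fin 3) 2) 2 = 1 := by decide
    rw [v0, v1, v2] at this
    exact this
  have H2 : Eg d lam n (fun a b c => h b a c) = Eg d lam n h := by
    have := Eg_perm (d := d) (lam := lam) (Equiv.swap 0 1) n h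
    have v0 : (Equiv.swap (0 : Fin 3) 1) 0 = 1 := by decide
    have v1 : (Equiv.swap (0 : Fin 3) 1) 1 = 0 := by decide
    have v2 : (Equiv.swap (0 : Fin 3) 1) 2 = 2 := by decide
    rw [v0, v1, v2] at this
    exact this
  have H3 : Eg d lam n (fun a b c => h b c a) = Eg d lam n h := by
    have := Eg_perm (d := d) (lam := lam) (Equiv.swap 0 1 * Equiv.swap 1 2) n h
    have v0 : (Equiv.swap 0 1 * Equiv.swap 1 2 : Equiv.Perm (Fin 3)) 0 = 1 := by decide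
    have v1 : (Equiv.swap 0 1 * Equiv.swap 1 2 : Equiv.Perm (Fin 3)) 1 = 2 := by decide
    have v2 : (Equiv.swap 0 1 * Equiv.swap 1 2 : Equiv.Perm (Fin 3)) 2 = 0 := by decide
    rw [v0, v1, v2] at this
    exact this
  have H4 : Eg d lam n (fun a b c => h c a b) = Eg d lam n h := by
    have := Eg_perm (d := d) (lam := lam) (Equiv.swap 1 2 * Equiv.swap 0 1) n h
    have v0 : (Equiv.swap 1 2 * Equiv.swap 0 1 : Equiv.Perm (Fin 3)) 0 = 2 := by decide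
    have v1 : (Equiv.swap 1 2 * Equiv.swap 0 1 : Equiv.Perm (Fin 3)) 1 = 0 := by decide
    have v2 : (Equiv.swap 1 2 * Equiv.swap 0 1 : Equiv.Perm (Fin 3)) 2 = 1 := by decide
    rw [v0, v1, v2] at this
    exact this
  have H5 : Eg d lam n (fun a b c => h c b a) = Eg d lam n h := by
    have := Eg_perm (d := d) (lam := lam) (Equiv.swap 0 2) n h
    have v0 : (Equiv.swap (0 : Fin 3) 2) 0 = 2 := by decide
    have v1 : (Equiv.swap (0 : Fin 3) 2) 1 = 1 := by decide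
    have v2 : (Equiv.swap (0 : Fin 3) 2) 2 = 0 := by decide
    rw [v0, v1, v2] at this
    exact this
  -- expand the average
  have e0 := Eg_lin hd h1 h2 n 1 1 0 hh b1
  have e1 := Eg_lin hd h1 h2 n 1 1 0 ((hh.lin b1 1 1 0)) b2
  have e2 := Eg_lin hd h1 h2 n 1 1 0 (((hh.lin b1 1 1 0).lin b2 1 1 0)) b3
  have e3 := Eg_lin hd h1 h2 n 1 1 0 ((((hh.lin b1 1 1 0).lin b2 1 1 0).lin b3 1 1 0)) b4
  have e4 := Eg_lin hd h1 h2 n 1 1 0 (((((hh.lin b1 1 1 0).lin b2 1 1 0).lin b3 1 1 0).lin b4 1 1 0)) b5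
  have e5 := Eg_lin hd h1 h2 n (1 / 6) 0 0 ((((((hh.lin b1 1 1 0).lin b2 1 1 0).lin b3 1 1 0).lin b4 1 1 0).lin b5 1 1 0))
    (BddT.const 0)
  have ee : avg6 h = fun u0 u1 u2 => (1 / 6) * (1 * (1 * (1 * (1 * (1 * h u0 u1 u2 + 1 * h u0 u2 u1 + 0)
      + 1 * h u1 u0 u2 + 0) + 1 * h u1 u2 u0 + 0) + 1 * h u2 u0 u1 + 0) + 1 * h u2 u1 u0 + 0) + 0 * 0 + 0 := by
    funext u0 u1 u2
    unfold ST.avg6
    ring
  rw [ee, e5, e4, e3, e2, e1, e0, H1, H2, H3, H4, H5]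
  ring

end mean

section tens

variable {d lam : ℝ}

lemma gw_child' (hd : 0 ≤ d) (h1 : -(1 / 2) ≤ lam) (h2 : lam ≤ 1) (n : ℕ) (i : Fin 3) (x : GWObs 3 n) :
    ∑ j : Fin 3, pottsChannel 3 lam i j * gwLik 3 d lam n j x
      = Zg d lam n x * (1 + lam * msgg d lam n x i) := by
  rw [channel3_sum]
  have e : (1 / 3) * ∑ j : Fin 3, gwLik 3 d lam n j x = Zg d lam n x := rfl
  rw [e, gw_eq hd h1 h2 n x i]
  ring

lemma one_add_lam_msgg (hd : 0 ≤ d) (h1 : -(1 / 2) ≤ lam) (h2 : lam ≤ 1) (n : ℕ) (s : GWObs 3 n)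
    (i : Fin 3) : 0 ≤ 1 + lam * msgg d lam n s i := by
  have hT := InT_scale h1 h2 (msgg_InT hd h1 h2 n s)
  obtain ⟨_, h0', h1', h2'⟩ := hT
  fin_cases i
  · simpa using (by linarith : 0 ≤ 1 + lam * msgg d lam n s 0)
  · simpa using (by linarith : 0 ≤ 1 + lam * msgg d lam n s 1)
  · simpa using (by linarith : 0 ≤ 1 + lam * msgg d lam n s 2)

/-- One term: the monomial in the roots of the likelihoods. -/
lemma term_gw (hd : 0 ≤ d) (h1 : -(1 / 2) ≤ lam) (h2 : lam ≤ 1) {k0 k1 k2 : ℕ} (hk : k0 + k1 + k2 = 9) (n : ℕ)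
    (s : GWObs 3 n) :
    Zg d lam n s * Gk k0 k1 k2 (msgg d lam n s 0) (msgg d lam n s 1) (msgg d lam n s 2)
      = mon k0 k1 k2 (rt (gwLik 3 d lam n 0 s)) (rt (gwLik 3 d lam n 1 s)) (rt (gwLik 3 d lam n 2 s)) := by
  have hZ := Zg_nonneg hd h1 h2 n s
  have e : ∀ i : Fin 3, rt (gwLik 3 d lam n i s) = rt (Zg d lam n s) * rt (1 + msgg d lam n s i) := by
    intro i
    rw [gw_eq hd h1 h2 n s i, rt_mul hZ (by linarith [msgg_ge hd h1 h2 n s i])]
  rw [e 0, e 1, e 2, mon_scale, hk, rt_pow hZ]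
  rfl

/-- One child: the monomial in the roots of the likelihoods of the child. -/
lemma term_child_g (hd : 0 ≤ d) (h1 : -(1 / 2) ≤ lam) (h2 : lam ≤ 1) {k0 k1 k2 : ℕ} (hk : k0 + k1 + k2 = 9) (n : ℕ)
    (x : GWObs 3 n) :
    mon k0 k1 k2 (rt (∑ j : Fin 3, pottsChannel 3 lam 0 j * gwLik 3 d lam n j x))
        (rt (∑ j : Fin 3, pottsChannel 3 lam 1 j * gwLik 3 d lam n j x))
        (rt (∑ j : Fin 3, pottsChannel 3 lam 2 j * gwLik 3 d lam n j x))
      = Zg d lam n x * Gk k0 k1 k2 (lam * msgg d lam n x 0) (lam * msgg d lam n x 1) (lam * msgg d lam n x 2) := by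
  have hZ := Zg_nonneg hd h1 h2 n x
  have e : ∀ i : Fin 3, rt (∑ j : Fin 3, pottsChannel 3 lam i j * gwLik 3 d lam n j x)
      = rt (Zg d lam n x) * rt (1 + lam * msgg d lam n x i) := by
    intro i
    rw [gw_child' hd h1 h2, rt_mul hZ (one_add_lam_msgg hd h1 h2 n x i)]
  rw [e 0, e 1, e 2, mon_scale, hk, rt_pow hZ]
  rfl

lemma BddT.gk_scale (k0 k1 k2 : ℕ) (h1 : -(1 / 2) ≤ lam) (h2 : lam ≤ 1) :
    BddT (fun a b c => Gk k0 k1 k2 (lam * a) (lam * b) (lam * c)) :=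
  (BddT.gk k0 k1 k2).scale h1 h2

/-- The tensorization identity on the Galton-Watson tree. -/
theorem Eg_Gk_succ (hd : 0 ≤ d) (h1 : -(1 / 2) ≤ lam) (h2 : lam ≤ 1) {k0 k1 k2 : ℕ} (hk : k0 + k1 + k2 = 9)
    (n : ℕ) :
    Eg d lam (n + 1) (Gk k0 k1 k2) =
      Real.exp (d * (Eg d lam n (fun u0 u1 u2 => Gk k0 k1 k2 (lam * u0) (lam * u1) (lam * u2)) - 1)) := by
  set hh : GWObs 3 n → ℝ := fun x => Zg d lam n x *
    Gk k0 k1 k2 (lam * msgg d lam n x 0) (lam * msgg d lam n x 1) (lam * msgg d lam n x 2) with hhd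
  have hs : HasSum hh (Eg d lam n (fun u0 u1 u2 => Gk k0 k1 k2 (lam * u0) (lam * u1) (lam * u2))) :=
    (summ hd h1 h2 n (BddT.gk_scale k0 k1 k2 h1 h2)).hasSum
  have h0 : ∀ x, 0 ≤ hh x := by
    intro x
    have hT := msgg_InT (d := d) hd h1 h2 n x
    obtain ⟨_, a0, a1, a2⟩ := InT_scale h1 h2 hT
    have r0 := rt_nonneg (by linarith : 0 ≤ 1 + lam * msgg d lam n x 0)
    have r1 := rt_nonneg (by linarith : 0 ≤ 1 + lam * msgg d lam n x 1)
    have r2 := rt_nonneg (by linarith : 0 ≤ 1 + lam * msgg d lam n x 2)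
    apply mul_nonneg (Zg_nonneg hd h1 h2 n x)
    unfold Gk mon
    positivity
  have hS := hasSum_sigma_pois hd h0 hs
  have hnn : ∀ (i : Fin 3) (x : GWObs 3 n),
      0 ≤ ∑ j : Fin 3, pottsChannel 3 lam i j * gwLik 3 d lam n j x := by
    intro i x
    exact Finset.sum_nonneg fun j _ => mul_nonneg (channel3_nonneg h1 h2 i j) (gw_nonneg hd h1 h2 n j x)
  have hterm : ∀ s : (Σ k : ℕ, (Fin k → GWObs 3 n)),
      Zg d lam (n + 1) s * Gk k0 k1 k2 (msgg d lam (n + 1) s 0) (msgg d lam (n + 1) s 1) (msgg d lam (n + 1) s 2)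
        = poisWeight d s.1 * ∏ c, hh (s.2 c) := by
    rintro ⟨k, f⟩
    refine (term_gw hd h1 h2 hk (n + 1) (Sigma.mk k f)).trans ?_
    have hw := poisWeight_nonneg hd k
    have e : ∀ i : Fin 3, rt (gwLik 3 d lam (n + 1) i (⟨k, f⟩ : Σ k : ℕ, (Fin k → GWObs 3 n)))
        = rt (poisWeight d k) * ∏ c : Fin k, rt (∑ j : Fin 3, pottsChannel 3 lam i j * gwLik 3 d lam n j (f c)) := by
      intro i
      rw [gw_succ, rt_mul hw (Finset.prod_nonneg fun c _ => hnn i (f c))]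
      rw [rt_prod _ _ (fun c _ => hnn i (f c))]
    rw [e 0, e 1, e 2, mon_scale, hk, rt_pow hw, mon_prod]
    congr 1
    exact Finset.prod_congr rfl fun c _ => term_child_g hd h1 h2 hk n (f c)
  unfold Eg at hs ⊢
  have : (fun s : GWObs 3 (n + 1) => Zg d lam (n + 1) s * Gk k0 k1 k2 (msgg d lam (n + 1) s 0)
      (msgg d lam (n + 1) s 1) (msgg d lam (n + 1) s 2))
      = fun s : (Σ k : ℕ, (Fin k → GWObs 3 n)) => poisWeight d s.1 * ∏ c, hh (s.2 c) := by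
    funext s
    exact hterm s
  rw [show (∑' s : GWObs 3 (n + 1), Zg d lam (n + 1) s * Gk k0 k1 k2 (msgg d lam (n + 1) s 0)
      (msgg d lam (n + 1) s 1) (msgg d lam (n + 1) s 2))
      = ∑' s : (Σ k : ℕ, (Fin k → GWObs 3 n)), poisWeight d s.1 * ∏ c, hh (s.2 c) from tsum_congr hterm]
  exact hS.tsum_eq

end tens

/-! ### From the mean of the squared norm to the reconstruction quantity -/

section gap

variable {d lam : ℝ}

theorem gw_gap_tendsto (hd : 0 ≤ d) (h1 : -(1 / 2) ≤ lam) (h2 : lam ≤ 1)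
    (hΦ : Tendsto (fun n => Eg d lam n sq3) atTop (𝓝 0)) :
    Tendsto (fun n => gwGap 3 d lam n) atTop (𝓝 0) := by
  have key : ∀ (n : ℕ) (δ : ℝ), 0 < δ → |gwGap 3 d lam n| ≤
      (1 / 6) * (3 * δ / 2 + Eg d lam n sq3 / (2 * δ)) := by
    intro n δ hδ
    have hterm : ∀ s : GWObs 3 n, gwProb 3 d lam n s *
        ((1 / 2) * ∑ i : Fin 3, |gwPosterior 3 d lam n s i - 1 / ((3 : ℕ) : ℝ)|)
        = Zg d lam n s * ((1 / 6) * (|msgg d lam n s 0| + |msgg d lam n s 1| + |msgg d lam n s 2|)) := by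
      intro s
      rw [gwProb_eq]
      by_cases hz : Zg d lam n s = 0
      · rw [hz]; simp
      · rw [Fin.sum_univ_three, gwPosterior_eq n s 0 hz, gwPosterior_eq n s 1 hz, gwPosterior_eq n s 2 hz]
        simp only [abs_div]
        norm_num
        left
        ring
    have hgap : gwGap 3 d lam n = ∑' s : GWObs 3 n,
        Zg d lam n s * ((1 / 6) * (|msgg d lam n s 0| + |msgg d lam n s 1| + |msgg d lam n s 2|)) := by
      unfold gwGap
      exact tsum_congr hterm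
    have hnn : 0 ≤ gwGap 3 d lam n := by
      rw [hgap]
      apply tsum_nonneg
      intro s
      apply mul_nonneg (Zg_nonneg hd h1 h2 n s)
      positivity
    rw [abs_of_nonneg hnn, hgap]
    have hpt : ∀ x : ℝ, |x| ≤ δ / 2 + x * x / (2 * δ) := by
      intro x
      have h3 : 0 ≤ (|x| - δ) ^ 2 := sq_nonneg _
      have h4 : |x| * |x| = x * x := abs_mul_abs_self x
      have h5 : δ / 2 + x * x / (2 * δ) - |x| = (|x| - δ) ^ 2 / (2 * δ) := by
        rw [← h4]; field_simp; ring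
      have h6 : 0 ≤ (|x| - δ) ^ 2 / (2 * δ) := by positivity
      linarith
    have hA : BddT (fun u0 u1 u2 => (1 / 6) * (|u0| + |u1| + |u2|)) := by
      refine ⟨1, fun a b c h => ?_⟩
      obtain ⟨hs, h0, h1, h2⟩ := h
      have e0 : |a| ≤ 2 := abs_le.2 ⟨by linarith, by linarith⟩
      have e1 : |b| ≤ 2 := abs_le.2 ⟨by linarith, by linarith⟩
      have e2 : |c| ≤ 2 := abs_le.2 ⟨by linarith, by linarith⟩
      rw [abs_of_nonneg (by positivity)]
      linarith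
    have hB : BddT (fun u0 u1 u2 => (1 / 6) * (3 * δ / 2) * 1 + ((1 / 6) * (1 / (2 * δ))) * sq3 u0 u1 u2) := by
      have := (BddT.const ((1 / 6) * (1 / (2 * δ)))).mul BddT.sq3
      exact (BddT.const ((1 / 6) * (3 * δ / 2) * 1)).add this
    have hle := Eg_le hd h1 h2 n hA hB (fun u0 u1 u2 _ => by
      have e0 := hpt u0
      have e1 := hpt u1
      have e2 := hpt u2
      have e3 : sq3 u0 u1 u2 / (2 * δ) = u0 * u0 / (2 * δ) + u1 * u1 / (2 * δ) + u2 * u2 / (2 * δ) := by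
        unfold sq3; ring
      have e4 : (1 / 6) * (1 / (2 * δ)) * sq3 u0 u1 u2 = (1 / 6) * (sq3 u0 u1 u2 / (2 * δ)) := by ring
      rw [e4, e3]
      linarith)
    have hE : Eg d lam n (fun u0 u1 u2 => (1 / 6) * (3 * δ / 2) * 1 + ((1 / 6) * (1 / (2 * δ))) * sq3 u0 u1 u2)
        = (1 / 6) * (3 * δ / 2 + Eg d lam n sq3 / (2 * δ)) := by
      have := Eg_lin hd h1 h2 n 0 ((1 / 6) * (1 / (2 * δ))) ((1 / 6) * (3 * δ / 2)) (BddT.const 0) BddT.sq3
      have e : (fun u0 u1 u2 => (1 / 6) * (3 * δ / 2) * 1 + ((1 / 6) * (1 / (2 * δ))) * sq3 u0 u1 u2)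
          = fun u0 u1 u2 => 0 * (0 : ℝ) + ((1 / 6) * (1 / (2 * δ))) * sq3 u0 u1 u2 + (1 / 6) * (3 * δ / 2) := by
        funext u0 u1 u2
        ring
      rw [e, this]
      ring
    rw [hE] at hle
    exact hle
  rw [Metric.tendsto_atTop]
  intro ε hε
  have hε2 : 0 < ε * ε := mul_pos hε hε
  obtain ⟨N, hN⟩ := (Metric.tendsto_atTop.1 hΦ) (ε * ε) hε2
  refine ⟨N, fun n hn => ?_⟩
  have h3 := hN n hn
  rw [Real.dist_eq, sub_zero] at h3 ⊢
  have h4 := key n ε hε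
  have h5 : Eg d lam n sq3 ≤ ε * ε := le_of_lt (lt_of_le_of_lt (le_abs_self _) h3)
  have h6 : Eg d lam n sq3 / (2 * ε) ≤ ε / 2 := by
    rw [div_le_iff₀ (by positivity)]
    nlinarith
  have h7 : (1 / 6) * (3 * ε / 2 + Eg d lam n sq3 / (2 * ε)) ≤ ε / 3 := by linarith
  linarith

end gap

end PS

end Vale.Agent.Lib.P154
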