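import Vale.Agent.Lib.P154.PS.Mean
import Vale.Agent.Lib.P154.SN.Step
import Mathlib.Analysis.Convex.SpecificFunctions.Basic

/-!
The Lyapunov argument on the Galton-Watson tree.
-/

namespace Vale.Agent.Lib.P154

namespace PS

open ST SN Filter Topology

section step

variable {d lam : ℝ}

lemma BddT.lin4 {f g h : ℝ → ℝ → ℝ → ℝ} (hf : BddT f) (hg : BddT g) (hh : BddT h) (a b c e : ℝ) :
    BddT (fun u0 u1 u2 => a * f u0 u1 u2 + b * g u0 u1 u2 + c * h u0 u1 u2 + e) :=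
  (((BddT.mul (BddT.const a) hf).add (BddT.mul (BddT.const b) hg)).add (BddT.mul (BddT.const c) hh)).add (BddT.const e)

lemma Eg_lin4 (hd : 0 ≤ d) (h1 : -(1 / 2) ≤ lam) (h2 : lam ≤ 1) (n : ℕ) (a b c e : ℝ) {f g h : ℝ → ℝ → ℝ → ℝ}
    (hf : BddT f) (hg : BddT g) (hh : BddT h) :
    Eg d lam n (fun u0 u1 u2 => a * f u0 u1 u2 + b * g u0 u1 u2 + c * h u0 u1 u2 + e)
      = a * Eg d lam n f + b * Eg d lam n g + c * Eg d lam n h + e := by
  have h3 := Eg_lin hd h1 h2 n 1 c e (hf.lin hg a b 0) hh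
  have h4 := Eg_lin hd h1 h2 n a b 0 hf hg
  have e1 : (fun u0 u1 u2 => a * f u0 u1 u2 + b * g u0 u1 u2 + c * h u0 u1 u2 + e)
      = fun u0 u1 u2 => 1 * (a * f u0 u1 u2 + b * g u0 u1 u2 + 0) + c * h u0 u1 u2 + e := by
    funext u0 u1 u2
    ring
  rw [e1, h3, h4]
  ring

lemma assembleP {dd H x A1 A2 Ap Mx z Tt T1 T2 Tp Fb FE Eψ ε Es2 Es : ℝ}
    (hT : T1 + T2 = Tt)
    (hm : Tt * Mx ≤ T1 * A1 + T2 * A2)
    (ez : Tt * (dd * z) = dd * H)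
    (hc : Tp * (Ap - 1 + dd * x) - Tt * (Mx - 1 + dd * z) ≤ Fb)
    (hJ : Fb ≤ FE)
    (hI : dd * (H - Tp * x) + FE + ε * Es2 ≤ Eψ)
    (hs : ε * Es ^ 2 ≤ ε * Es2) :
    T1 * (1 - A1) + T2 * (1 - A2) - Tp * (1 - Ap) ≤ Eψ - ε * Es ^ 2 := by
  subst hT
  have e : (T1 + T2) * (Mx - 1 + dd * z) = (T1 + T2) * Mx - (T1 + T2) + (T1 + T2) * (dd * z) := by ring
  rw [e, ez] at hc
  have e2 : dd * (H - Tp * x) = dd * H - Tp * (dd * x) := by ring
  have e3 : Tp * (Ap - 1 + dd * x) = Tp * Ap - Tp + Tp * (dd * x) := by ring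
  rw [e3] at hc
  rw [e2] at hI
  linarith

lemma mix_exp {T1 T2 d E1 E2 : ℝ} (hT1 : 0 ≤ T1) (hT2 : 0 ≤ T2) (hT : 0 < T1 + T2) :
    (T1 + T2) * Real.exp (-(d * ((T1 * (1 - E1) + T2 * (1 - E2)) / (T1 + T2))))
      ≤ T1 * Real.exp (d * (E1 - 1)) + T2 * Real.exp (d * (E2 - 1)) := by
  have hp : 0 ≤ T1 / (T1 + T2) := div_nonneg hT1 hT.le
  have hq : 0 ≤ T2 / (T1 + T2) := div_nonneg hT2 hT.le
  have hpq : T1 / (T1 + T2) + T2 / (T1 + T2) = 1 := by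
    rw [← add_div]
    exact div_self hT.ne'
  have hc' := convexOn_exp.2 (Set.mem_univ (d * (E1 - 1))) (Set.mem_univ (d * (E2 - 1))) hp hq hpq
  simp only [smul_eq_mul] at hc'
  have e5 : T1 / (T1 + T2) * (d * (E1 - 1)) + T2 / (T1 + T2) * (d * (E2 - 1))
      = -(d * ((T1 * (1 - E1) + T2 * (1 - E2)) / (T1 + T2))) := by
    field_simp
    ring
  rw [e5] at hc'
  have := mul_le_mul_of_nonneg_left hc' hT.le
  have e6 : (T1 + T2) * (T1 / (T1 + T2) * Real.exp (d * (E1 - 1)) + T2 / (T1 + T2) * Real.exp (d * (E2 - 1)))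
      = T1 * Real.exp (d * (E1 - 1)) + T2 * Real.exp (d * (E2 - 1)) := by
    field_simp
  rw [e6] at this
  exact this

lemma means_hull (hd : 0 ≤ d) (h1 : -(1 / 2) ≤ lam) (h2 : lam ≤ 1) (n : ℕ) {g1 g2 gp : ℝ → ℝ → ℝ → ℝ}
    {T1 T2 ρ1 ρ2 xm : ℝ} (bs1 : BddT g1) (bs2 : BddT g2) (bsp : BddT gp)
    (hGp : ∀ u0 u1 u2, InT u0 u1 u2 → 0 ≤ 1 - gp u0 u1 u2)
    (hH : ∀ u0 u1 u2, InT u0 u1 u2 →
      ρ1 * (1 - gp u0 u1 u2) ≤ T1 * (1 - g1 u0 u1 u2) + T2 * (1 - g2 u0 u1 u2) ∧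
      T1 * (1 - g1 u0 u1 u2) + T2 * (1 - g2 u0 u1 u2) ≤ ρ2 * (1 - gp u0 u1 u2) ∧
      1 - gp u0 u1 u2 ≤ xm) :
    ρ1 * (1 - Eg d lam n gp) ≤ T1 * (1 - Eg d lam n g1) + T2 * (1 - Eg d lam n g2) ∧
    T1 * (1 - Eg d lam n g1) + T2 * (1 - Eg d lam n g2) ≤ ρ2 * (1 - Eg d lam n gp) ∧
    1 - Eg d lam n gp ≤ xm ∧ 0 ≤ 1 - Eg d lam n gp := by
  have pos : ∀ a b c' e : ℝ, (∀ u0 u1 u2, InT u0 u1 u2 → 0 ≤ a * g1 u0 u1 u2 + b * g2 u0 u1 u2 + c' * gp u0 u1 u2 + e) →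
      0 ≤ a * Eg d lam n g1 + b * Eg d lam n g2 + c' * Eg d lam n gp + e := by
    intro a b c' e h
    rw [← Eg_lin4 hd h1 h2 n a b c' e bs1 bs2 bsp]
    exact Eg_nonneg hd h1 h2 n h
  refine ⟨?_, ?_, ?_, ?_⟩
  · have := pos (-T1) (-T2) ρ1 (T1 + T2 - ρ1) (fun u0 u1 u2 hu => by
      have h3 := (hH u0 u1 u2 hu).1
      linarith)
    linarith
  · have := pos T1 T2 (-ρ2) (ρ2 - T1 - T2) (fun u0 u1 u2 hu => by
      have h3 := (hH u0 u1 u2 hu).2.1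
      linarith)
    linarith
  · have := pos 0 0 1 (xm - 1) (fun u0 u1 u2 hu => by
      have h3 := (hH u0 u1 u2 hu).2.2
      linarith)
    linarith
  · have := pos 0 0 (-1) 1 (fun u0 u1 u2 hu => by
      have h3 := hGp u0 u1 u2 hu
      linarith)
    linarith

/-- Jensen's inequality for the convex majorant. -/
lemma Eg_Fq_jensen (hd : 0 ≤ d) (h1 : -(1 / 2) ≤ lam) (h2 : lam ≤ 1) (n : ℕ) {c β : ℝ} {W : ℝ → ℝ → ℝ → ℝ}
    (hc : 0 ≤ c) (hβ : 0 ≤ β) (bW : BddT W) (hW0 : ∀ u0 u1 u2, InT u0 u1 u2 → 0 ≤ W u0 u1 u2) :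
    Fq c β (Eg d lam n W) ≤ Eg d lam n (fun a b c' => Fq c β (W a b c')) ∧
      BddT (fun a b c' => Fq c β (W a b c')) := by
  have bF : BddT (fun a b c' => Fq c β (W a b c')) := by
    obtain ⟨C, hC⟩ := bW
    refine ⟨c * C ^ 2, fun a b c' hu => ?_⟩
    have a0 := hW0 a b c' hu
    have a1 := hC a b c' hu
    rw [abs_of_nonneg a0] at a1
    rw [abs_of_nonneg (Fq_nonneg hc hβ a0)]
    unfold Fq
    have hp : 0 < 1 + β * W a b c' := by positivity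
    rw [div_le_iff₀ hp]
    have a2 : W a b c' ^ 2 ≤ C ^ 2 := pow_le_pow_left₀ a0 a1 2
    have a3 : 0 ≤ c * C ^ 2 * (β * W a b c') := by
      have : 0 ≤ C := le_trans a0 a1
      positivity
    nlinarith [mul_le_mul_of_nonneg_left a2 hc]
  refine ⟨?_, bF⟩
  have hWb0 : 0 ≤ Eg d lam n W := Eg_nonneg hd h1 h2 n hW0
  set Wb := Eg d lam n W with hWb
  set D := c * (2 * Wb + β * Wb ^ 2) / (1 + β * Wb) ^ 2 with hD
  have h3 := Eg_le hd h1 h2 n (bW.lin (BddT.const 0) D 0 (Fq c β Wb - D * Wb)) bF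
    (fun u0 u1 u2 hu => by
      have a1 := hW0 u0 u1 u2 hu
      have := Fq_tangent (w := Wb) (W := W u0 u1 u2) hc hβ hWb0 a1
      have e : D * W u0 u1 u2 + 0 * (0 : ℝ) + (Fq c β Wb - D * Wb) = Fq c β Wb + D * (W u0 u1 u2 - Wb) := by
        ring
      rw [e]
      exact this)
  rw [Eg_lin hd h1 h2 n D 0 (Fq c β Wb - D * Wb) bW (BddT.const 0)] at h3
  have e : D * Eg d lam n W + 0 * Eg d lam n (fun _ _ _ => (0 : ℝ)) + (Fq c β Wb - D * Wb) = Fq c β Wb := by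
    rw [← hWb]
    ring
  rw [e] at h3
  exact h3

/-- One step of the Lyapunov argument on the Galton-Watson tree. -/
theorem stepP (hd : 0 ≤ d) (h1 : -(1 / 2) ≤ lam) (h2 : lam ≤ 1) {G1 G2 Gp' ψ W : ℝ → ℝ → ℝ → ℝ}
    {T1 T2 Tp κ c β ε ρ1 ρ2 xm : ℝ}
    (hT1 : 0 ≤ T1) (hT2 : 0 ≤ T2) (hT : 0 < T1 + T2) (hκ : 0 ≤ κ)
    (eψ : ∀ a b c, ψ a b c = T1 * (1 - G1 a b c) + T2 * (1 - G2 a b c) - Tp * (1 - Gp' a b c))
    (eW : ∀ a b c, W a b c = Tp * (1 - Gp' a b c) - κ * (T1 * (1 - G1 a b c) + T2 * (1 - G2 a b c)))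
    (b1 : BddT G1) (b2 : BddT G2) (bp : BddT Gp')
    (ten1 : ∀ n, Eg d lam (n + 1) G1
      = Real.exp (d * (Eg d lam n (fun a b c => G1 (lam * a) (lam * b) (lam * c)) - 1)))
    (ten2 : ∀ n, Eg d lam (n + 1) G2
      = Real.exp (d * (Eg d lam n (fun a b c => G2 (lam * a) (lam * b) (lam * c)) - 1)))
    (tenp : ∀ n, Eg d lam (n + 1) Gp'
      = Real.exp (d * (Eg d lam n (fun a b c => Gp' (lam * a) (lam * b) (lam * c)) - 1)))
    (hc : 0 ≤ c) (hβ : 0 ≤ β) (hε : 0 ≤ ε) (hρ : κ * ρ2 ≤ Tp)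
    (hGp : ∀ u0 u1 u2, InT u0 u1 u2 → 0 ≤ 1 - Gp' (lam * u0) (lam * u1) (lam * u2))
    (hH : ∀ u0 u1 u2, InT u0 u1 u2 →
      ρ1 * (1 - Gp' (lam * u0) (lam * u1) (lam * u2))
          ≤ T1 * (1 - G1 (lam * u0) (lam * u1) (lam * u2)) + T2 * (1 - G2 (lam * u0) (lam * u1) (lam * u2)) ∧
      T1 * (1 - G1 (lam * u0) (lam * u1) (lam * u2)) + T2 * (1 - G2 (lam * u0) (lam * u1) (lam * u2))
          ≤ ρ2 * (1 - Gp' (lam * u0) (lam * u1) (lam * u2)) ∧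
      1 - Gp' (lam * u0) (lam * u1) (lam * u2) ≤ xm)
    (hcone : ∀ x y : ℝ, ρ1 * x ≤ y → y ≤ ρ2 * x → 0 ≤ x → x ≤ xm →
      Tp * (Real.exp (-(d * x)) - 1 + d * x)
          - (T1 + T2) * (Real.exp (-(d * (y / (T1 + T2)))) - 1 + d * (y / (T1 + T2)))
        ≤ Fq c β (Tp * x - κ * y))
    (hPW : ∀ u0 u1 u2, InT u0 u1 u2 →
      d * ψ (lam * u0) (lam * u1) (lam * u2) + Fq c β (W (lam * u0) (lam * u1) (lam * u2))
        + ε * (sq3 u0 u1 u2) ^ 2 ≤ ψ u0 u1 u2)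
    (n : ℕ) :
    Eg d lam (n + 1) ψ ≤ Eg d lam n ψ - ε * (Eg d lam n sq3) ^ 2 := by
  have bs1 : BddT (fun a b c => G1 (lam * a) (lam * b) (lam * c)) := b1.scale h1 h2
  have bs2 : BddT (fun a b c => G2 (lam * a) (lam * b) (lam * c)) := b2.scale h1 h2
  have bsp : BddT (fun a b c => Gp' (lam * a) (lam * b) (lam * c)) := bp.scale h1 h2
  have eψ' : ψ = fun a b c' => (-T1) * G1 a b c' + (-T2) * G2 a b c' + Tp * Gp' a b c' + (T1 + T2 - Tp) := by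
    funext a b c'
    rw [eψ]
    ring
  have bψ : BddT ψ := by
    rw [eψ']
    exact BddT.lin4 b1 b2 bp _ _ _ _
  have bψs : BddT (fun a b c' => ψ (lam * a) (lam * b) (lam * c')) := bψ.scale h1 h2
  obtain ⟨m1, m2, m3, m4⟩ := means_hull hd h1 h2 n bs1 bs2 bsp hGp hH
  generalize hE1 : Eg d lam n (fun a b c' => G1 (lam * a) (lam * b) (lam * c')) = E1 at *
  generalize hE2 : Eg d lam n (fun a b c' => G2 (lam * a) (lam * b) (lam * c')) = E2 at *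
  generalize hEp : Eg d lam n (fun a b c' => Gp' (lam * a) (lam * b) (lam * c')) = Ep at *
  have lin : ∀ a b c' e : ℝ, Eg d lam n (fun u0 u1 u2 => a * G1 (lam * u0) (lam * u1) (lam * u2)
      + b * G2 (lam * u0) (lam * u1) (lam * u2) + c' * Gp' (lam * u0) (lam * u1) (lam * u2) + e)
        = a * E1 + b * E2 + c' * Ep + e := by
    intro a b c' e
    rw [Eg_lin4 hd h1 h2 n a b c' e bs1 bs2 bsp, hE1, hE2, hEp]
  -- the mean of the potential at the next level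
  have e1 : Eg d lam (n + 1) ψ
      = T1 * (1 - Real.exp (d * (E1 - 1))) + T2 * (1 - Real.exp (d * (E2 - 1))) - Tp * (1 - Real.exp (d * (Ep - 1))) := by
    rw [eψ', Eg_lin4 hd h1 h2 (n + 1) _ _ _ _ b1 b2 bp, ten1, ten2, tenp, hE1, hE2, hEp]
    ring
  -- the scaled means
  generalize hHd : T1 * (1 - E1) + T2 * (1 - E2) = H at *
  generalize hx : 1 - Ep = x at *
  have e3 : Eg d lam n (fun a b c' => ψ (lam * a) (lam * b) (lam * c')) = H - Tp * x := by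
    have e2 : (fun a b c' => ψ (lam * a) (lam * b) (lam * c'))
        = (fun a b c' => (-T1) * G1 (lam * a) (lam * b) (lam * c') + (-T2) * G2 (lam * a) (lam * b) (lam * c')
            + Tp * Gp' (lam * a) (lam * b) (lam * c') + (T1 + T2 - Tp)) := by
      funext a b c'
      rw [eψ]
      ring
    rw [e2, lin, ← hHd, ← hx]
    ring
  -- Jensen for the exponential
  have hmix := mix_exp (d := d) (E1 := E1) (E2 := E2) hT1 hT2 hT
  rw [hHd] at hmix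
  -- the second order term
  have hcone' := hcone x H m1 m2 m4 m3
  have ez : (T1 + T2) * (d * (H / (T1 + T2))) = d * H := by
    field_simp
  -- Jensen for the convex majorant
  have hW0 : ∀ u0 u1 u2, InT u0 u1 u2 → 0 ≤ W (lam * u0) (lam * u1) (lam * u2) := by
    intro u0 u1 u2 hu
    obtain ⟨_, a2, _⟩ := hH u0 u1 u2 hu
    have a4 := hGp u0 u1 u2 hu
    rw [eW]
    have a5 := mul_le_mul_of_nonneg_left a2 hκ
    have a6 := mul_nonneg (by linarith : 0 ≤ Tp - κ * ρ2) a4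
    nlinarith
  have eW' : (fun a b c' => W (lam * a) (lam * b) (lam * c'))
      = fun a b c' => (κ * T1) * G1 (lam * a) (lam * b) (lam * c') + (κ * T2) * G2 (lam * a) (lam * b) (lam * c')
        + (-Tp) * Gp' (lam * a) (lam * b) (lam * c') + (Tp - κ * (T1 + T2)) := by
    funext a b c'
    rw [eW]
    ring
  have bW : BddT (fun a b c' => W (lam * a) (lam * b) (lam * c')) := by
    rw [eW']
    exact BddT.lin4 bs1 bs2 bsp _ _ _ _
  have eWb : Eg d lam n (fun a b c' => W (lam * a) (lam * b) (lam * c')) = Tp * x - κ * H := by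
    rw [eW', lin, ← hHd, ← hx]
    ring
  obtain ⟨hJ, bF⟩ := Eg_Fq_jensen hd h1 h2 n hc hβ bW hW0
  rw [eWb] at hJ
  -- the integrated pointwise inequality
  have bS2 : BddT (fun u0 u1 u2 => (sq3 u0 u1 u2) ^ 2) := BddT.sq3.sq
  have hI := Eg_le hd h1 h2 n (BddT.lin4 bψs bF bS2 d 1 ε 0) bψ (fun u0 u1 u2 hu => by
    have := hPW u0 u1 u2 hu
    linarith)
  rw [Eg_lin4 hd h1 h2 n d 1 ε 0 bψs bF bS2, e3] at hI
  have hJ2 := Eg_sq_le hd h1 h2 n BddT.sq3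
  -- assembling
  have hJ3 := mul_le_mul_of_nonneg_left hJ2 hε
  have ex1 : -(d * x) = d * (Ep - 1) := by rw [← hx]; ring
  rw [ex1] at hcone'
  rw [e1]
  exact assembleP (Mx := Real.exp (-(d * (H / (T1 + T2))))) (z := H / (T1 + T2)) (Tt := T1 + T2) (x := x) rfl hmix ez
    hcone' hJ (by linarith) hJ3

/-- Nonreconstruction from one step of the Lyapunov argument. -/
theorem gap_of_stepP (hd : 0 ≤ d) (h1 : -(1 / 2) ≤ lam) (h2 : lam ≤ 1) {ε : ℝ} (hε : 0 < ε) {ψ : ℝ → ℝ → ℝ → ℝ}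
    (hpos : ∀ u0 u1 u2, InT u0 u1 u2 → 0 ≤ ψ u0 u1 u2)
    (hstep : ∀ n, Eg d lam (n + 1) ψ ≤ Eg d lam n ψ - ε * (Eg d lam n sq3) ^ 2) :
    Tendsto (fun n => gwGap 3 d lam n) atTop (𝓝 0) := by
  apply gw_gap_tendsto hd h1 h2
  apply tendsto_of_decrement (l := fun n => Eg d lam n ψ) (κ := ε)
    hε (fun n => Eg_nonneg hd h1 h2 n hpos) (fun n => Eg_nonneg hd h1 h2 n (fun a b c _ => sq3_nonneg a b c))
  exact hstep

/-- Nonreconstruction from one step of the Lyapunov argument, for a bounded potential. -/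
theorem gap_of_stepB (hd : 0 ≤ d) (h1 : -(1 / 2) ≤ lam) (h2 : lam ≤ 1) {ε : ℝ} (hε : 0 < ε) {ψ : ℝ → ℝ → ℝ → ℝ}
    (bψ : BddT ψ)
    (hstep : ∀ n, Eg d lam (n + 1) ψ ≤ Eg d lam n ψ - ε * (Eg d lam n sq3) ^ 2) :
    Tendsto (fun n => gwGap 3 d lam n) atTop (𝓝 0) := by
  obtain ⟨C, hC⟩ := id bψ
  apply gw_gap_tendsto hd h1 h2
  apply tendsto_of_decrement (l := fun n => Eg d lam n ψ + C) (κ := ε)
    hε (fun n => ?_) (fun n => Eg_nonneg hd h1 h2 n (fun a b c _ => sq3_nonneg a b c))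
  · intro n
    have := hstep n
    show Eg d lam (n + 1) ψ + C ≤ Eg d lam n ψ + C - ε * (Eg d lam n sq3) ^ 2
    linarith
  · have e := Eg_lin hd h1 h2 n 1 0 C bψ (BddT.const 0)
    have h3 : 0 ≤ Eg d lam n (fun a b c => 1 * ψ a b c + 0 * (0 : ℝ) + C) :=
      Eg_nonneg hd h1 h2 n (fun a b c hu => by
        have := abs_le.1 (hC a b c hu)
        linarith [this.1])
    rw [e] at h3
    show 0 ≤ Eg d lam n ψ + C
    linarith

end step

section core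

/-- The pointwise inequality from the upper bounds and the top level inequality. -/
lemma pw_core_P {l d X A B Pu P W E b : ℝ} (hl : 0 < l) (hd : 0 ≤ d) (hdl : d * l ^ 2 ≤ 1) (hX : 0 ≤ X) (hb : 0 ≤ b)
    (hP : 0 ≤ P) (hW0 : 0 ≤ W) (g1 : P - l ^ 2 * X ≤ (l ^ 2 * X) ^ 2 * A) (g2 : W ≤ l ^ 2 * X * B)
    (ht : X ^ 2 * (((l * l) * A + CHv * ((B * B) * (1 + b * (B * X))⁻¹)) + E) ≤ Pu - X) :
    d * P + Fq (CHv * d ^ 2) (b * d) W + E * X ^ 2 ≤ Pu := by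
  have hl2 : 0 < l ^ 2 := by positivity
  have hC : 0 < CHv := by unfold CHv; norm_num
  -- the first term
  have h1 : l ^ 2 * (d * P) ≤ P := by
    have := mul_le_mul_of_nonneg_right hdl hP
    nlinarith
  have h2 : l ^ 2 * (d * P) ≤ l ^ 2 * (X + l ^ 2 * X ^ 2 * A) := by nlinarith
  have h3 : d * P ≤ X + l ^ 2 * X ^ 2 * A := le_of_mul_le_mul_left h2 hl2
  -- the second term
  have hb' : 0 ≤ l ^ 2 * X * B := le_trans hW0 g2
  have hXB : 0 ≤ X * B := by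
    have e : l ^ 2 * X * B = l ^ 2 * (X * B) := by ring
    rw [e] at hb'
    exact nonneg_of_mul_nonneg_right hb' hl2
  have hV0 : 0 ≤ d * W := mul_nonneg hd hW0
  have hV : d * W ≤ X * B := by
    have a1 : d * W ≤ d * (l ^ 2 * X * B) := mul_le_mul_of_nonneg_left g2 hd
    have a2 : d * (l ^ 2 * X * B) = (d * l ^ 2) * (X * B) := by ring
    have a3 : (d * l ^ 2) * (X * B) ≤ 1 * (X * B) := mul_le_mul_of_nonneg_right hdl hXB
    linarith
  have hF1 : Fq (CHv * d ^ 2) (b * d) W = Fq CHv b (d * W) := by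
    unfold Fq
    have e1 : CHv * d ^ 2 * W ^ 2 = CHv * (d * W) ^ 2 := by ring
    have e2 : b * d * W = b * (d * W) := by ring
    rw [e1, e2]
  have hF2 := Fq_mono hC.le hb hV0 hV
  have hF3 : Fq CHv b (X * B) = X ^ 2 * (CHv * ((B * B) * (1 + b * (B * X))⁻¹)) := by
    unfold Fq
    rw [div_eq_mul_inv, mul_comm X B]
    ring
  have e9 : X ^ 2 * (((l * l) * A + CHv * ((B * B) * (1 + b * (B * X))⁻¹)) + E)
      = l ^ 2 * X ^ 2 * A + X ^ 2 * (CHv * ((B * B) * (1 + b * (B * X))⁻¹)) + E * X ^ 2 := by ring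
  rw [e9] at ht
  rw [hF1]
  rw [hF3] at hF2
  linarith

/-- The pointwise inequality from the upper bounds and the top level inequality, general constant. -/
lemma pw_core_Pg {C l d X A B Pu P W E b : ℝ} (hC : 0 < C) (hl : 0 < l) (hd : 0 ≤ d) (hdl : d * l ^ 2 ≤ 1) (hb : 0 ≤ b)
    (hP : 0 ≤ P) (hW0 : 0 ≤ W) (g1 : P - l ^ 2 * X ≤ (l ^ 2 * X) ^ 2 * A) (g2 : W ≤ l ^ 2 * X * B)
    (ht : X ^ 2 * (((l * l) * A + C * ((B * B) * (1 + b * (B * X))⁻¹)) + E) ≤ Pu - X) :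
    d * P + Fq (C * d ^ 2) (b * d) W + E * X ^ 2 ≤ Pu := by
  have hl2 : 0 < l ^ 2 := by positivity
  -- the first term
  have h1 : l ^ 2 * (d * P) ≤ P := by
    have := mul_le_mul_of_nonneg_right hdl hP
    nlinarith
  have h2 : l ^ 2 * (d * P) ≤ l ^ 2 * (X + l ^ 2 * X ^ 2 * A) := by nlinarith
  have h3 : d * P ≤ X + l ^ 2 * X ^ 2 * A := le_of_mul_le_mul_left h2 hl2
  -- the second term
  have hb' : 0 ≤ l ^ 2 * X * B := le_trans hW0 g2
  have hXB : 0 ≤ X * B := by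
    have e : l ^ 2 * X * B = l ^ 2 * (X * B) := by ring
    rw [e] at hb'
    exact nonneg_of_mul_nonneg_right hb' hl2
  have hV0 : 0 ≤ d * W := mul_nonneg hd hW0
  have hV : d * W ≤ X * B := by
    have a1 : d * W ≤ d * (l ^ 2 * X * B) := mul_le_mul_of_nonneg_left g2 hd
    have a2 : d * (l ^ 2 * X * B) = (d * l ^ 2) * (X * B) := by ring
    have a3 : (d * l ^ 2) * (X * B) ≤ 1 * (X * B) := mul_le_mul_of_nonneg_right hdl hXB
    linarith
  have hF1 : Fq (C * d ^ 2) (b * d) W = Fq C b (d * W) := by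
    unfold Fq
    have e1 : C * d ^ 2 * W ^ 2 = C * (d * W) ^ 2 := by ring
    have e2 : b * d * W = b * (d * W) := by ring
    rw [e1, e2]
  have hF2 := Fq_mono hC.le hb hV0 hV
  have hF3 : Fq C b (X * B) = X ^ 2 * (C * ((B * B) * (1 + b * (B * X))⁻¹)) := by
    unfold Fq
    rw [div_eq_mul_inv, mul_comm X B]
    ring
  have e9 : X ^ 2 * (((l * l) * A + C * ((B * B) * (1 + b * (B * X))⁻¹)) + E)
      = l ^ 2 * X ^ 2 * A + X ^ 2 * (C * ((B * B) * (1 + b * (B * X))⁻¹)) + E * X ^ 2 := by ring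
  rw [e9] at ht
  rw [hF1]
  rw [hF3] at hF2
  linarith

end core

end PS

end Vale.Agent.Lib.P154
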