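import Mathlib.Analysis.SpecialFunctions.ExpDeriv
import Mathlib.Analysis.Calculus.Deriv.MeanValue
import Mathlib.Analysis.Calculus.Deriv.Pow
import Mathlib.Analysis.Calculus.Deriv.Add
import Mathlib.Analysis.Calculus.Deriv.Mul
import Mathlib.Data.Nat.Factorial.Basic

/-!
The alternating Taylor bounds for the exponential on the negative half line.
-/

namespace Vale.Agent.Lib.P154

namespace PS

/-- The Taylor polynomial of `exp (-v)`. -/
noncomputable def Tm : ℕ → ℝ → ℝ
  | 0, _ => 1
  | m + 1, v => Tm m v + (-v) ^ (m + 1) / ((m + 1).factorial : ℝ)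

lemma Tm_deriv (m : ℕ) (v : ℝ) : HasDerivAt (Tm (m + 1)) (-(Tm m v)) v := by
  induction m generalizing v with
  | zero =>
    have h : HasDerivAt (fun v : ℝ => (1 : ℝ) + (-v) ^ (0 + 1) / ((0 + 1).factorial : ℝ)) (-1) v := by
      have h1 : HasDerivAt (fun v : ℝ => (1 : ℝ) + -v) (-1) v := by
        simpa using ((hasDerivAt_id v).neg).const_add (1 : ℝ)
      convert h1 using 1
      funext w
      simp
    have e : Tm (0 + 1) = fun v : ℝ => (1 : ℝ) + (-v) ^ (0 + 1) / ((0 + 1).factorial : ℝ) := by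
      funext w
      simp [Tm]
    rw [e]
    simpa [Tm] using h
  | succ m ih =>
    have h1 := ih v
    have h2 : HasDerivAt (fun w : ℝ => (-w) ^ (m + 1 + 1) / ((m + 1 + 1).factorial : ℝ))
        (-((-v) ^ (m + 1) / ((m + 1).factorial : ℝ))) v := by
      have h3 : HasDerivAt (fun w : ℝ => (-w) ^ (m + 1 + 1))
          (((m + 1 + 1 : ℕ) : ℝ) * (-v) ^ (m + 1 + 1 - 1) * (-1)) v :=
        ((hasDerivAt_id v).neg).pow (m + 1 + 1)
      have h4 := h3.div_const ((m + 1 + 1).factorial : ℝ)
      refine h4.congr_deriv ?_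
      have hf : ((m + 1 + 1).factorial : ℝ) = ((m + 1 + 1 : ℕ) : ℝ) * ((m + 1).factorial : ℝ) := by
        rw [Nat.factorial_succ (m + 1)]
        push_cast
        ring
      have hne : ((m + 1).factorial : ℝ) ≠ 0 := by positivity
      have hne2 : (((m + 1 + 1 : ℕ) : ℝ)) ≠ 0 := by positivity
      rw [hf]
      simp only [Nat.add_sub_cancel]
      field_simp
    have e : Tm (m + 1 + 1) = fun w : ℝ => Tm (m + 1) w + (-w) ^ (m + 1 + 1) / ((m + 1 + 1).factorial : ℝ) := by
      funext w
      rfl
    rw [e]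
    have h5 := h1.add h2
    refine h5.congr_deriv ?_
    simp only [Tm]
    ring

/-- A function with nonnegative derivative on the half line, starting at zero, is nonnegative. -/
lemma nonneg_of_deriv {f g : ℝ → ℝ} (hd : ∀ x, HasDerivAt f (g x) x) (hg : ∀ x, 0 ≤ x → 0 ≤ g x) (h0 : f 0 = 0) :
    ∀ x, 0 ≤ x → 0 ≤ f x := by
  intro x hx
  have hm : MonotoneOn f (Set.Ici 0) := by
    apply monotoneOn_of_deriv_nonneg (convex_Ici 0)
    · exact fun y _ => (hd y).continuousAt.continuousWithinAt
    · exact fun y _ => (hd y).differentiableAt.differentiableWithinAt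
    · intro y hy
      rw [(hd y).deriv]
      rw [interior_Ici] at hy
      exact hg y (le_of_lt hy)
  have := hm (Set.mem_Ici.2 le_rfl) (Set.mem_Ici.2 hx) hx
  rw [h0] at this
  exact this

lemma exp_neg_deriv (v : ℝ) : HasDerivAt (fun w : ℝ => Real.exp (-w)) (-Real.exp (-v)) v := by
  have := ((hasDerivAt_id v).neg).exp
  simpa using this

/-- The alternating bounds. -/
theorem Tm_alt (m : ℕ) : ∀ v, 0 ≤ v → 0 ≤ (-1 : ℝ) ^ m * (Tm m v - Real.exp (-v)) := by
  induction m with
  | zero =>
    intro v hv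
    have : Real.exp (-v) ≤ 1 := Real.exp_le_one_iff.2 (by linarith)
    simp only [pow_zero, one_mul, Tm]
    linarith
  | succ m ih =>
    apply nonneg_of_deriv (g := fun v => (-1 : ℝ) ^ m * (Tm m v - Real.exp (-v)))
    · intro v
      have h1 := (Tm_deriv m v).sub (exp_neg_deriv v)
      have h2 := h1.const_mul ((-1 : ℝ) ^ (m + 1))
      refine h2.congr_deriv ?_
      rw [pow_succ]
      ring
    · exact ih
    · have e : Tm (m + 1) 0 = 1 := by
        have : ∀ k, Tm k 0 = 1 := by
          intro k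
          induction k with
          | zero => rfl
          | succ k ih => simp [Tm, ih]
        exact this _
      simp [e]

lemma exp_le_even (m : ℕ) {v : ℝ} (hv : 0 ≤ v) : Real.exp (-v) ≤ Tm (2 * m) v := by
  have := Tm_alt (2 * m) v hv
  rw [pow_mul] at this
  norm_num at this
  exact this

lemma le_exp_odd (m : ℕ) {v : ℝ} (hv : 0 ≤ v) : Tm (2 * m + 1) v ≤ Real.exp (-v) := by
  have := Tm_alt (2 * m + 1) v hv
  rw [pow_succ, pow_mul] at this
  norm_num at this
  linarith

end PS

end Vale.Agent.Lib.P154
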