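import Vale.Agent.Lib.P154.PS.Taylor

/-!
The polynomial bounds for the second order remainder of the exponential.
-/

namespace Vale.Agent.Lib.P154

namespace PS

/-- The upper bound polynomial. -/
noncomputable def PuF (v : ℝ) : ℝ :=
  (1 / 2) + v * (-(22369621 / 134217728) + v * ((11184811 / 268435456) + v * (-(1118481 / 134217728) + v * ((93207 / 67108864) + v * (-(53261 / 268435456) + v * ((3329 / 134217728) + v * (-(739 / 268435456) + v * ((37 / 134217728)))))))))

/-- The lower bound polynomial. -/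
noncomputable def PlF (v : ℝ) : ℝ :=
  (1 / 2) + v * (-(44739243 / 268435456) + v * ((5592405 / 134217728) + v * (-(2236963 / 268435456) + v * ((372827 / 268435456) + v * (-(26631 / 134217728) + v * ((6657 / 268435456) + v * (-(185 / 67108864) + v * ((73 / 268435456) + v * (-(7 / 268435456))))))))))

theorem R1_upper {v : ℝ} (hv : 0 ≤ v) : Real.exp (-v) - 1 + v ≤ v ^ 2 * PuF v := by
  have h := exp_le_even 5 hv
  have e : v ^ 2 * PuF v - (Tm (2 * 5) v - 1 + v) = (0 / 1) * v ^ 2 + (1 / 402653184) * v ^ 3 + (1 / 805306368) * v ^ 4 + (1 / 2013265920) * v ^ 5 + (11 / 3019898880) * v ^ 6 + (1 / 84557168640) * v ^ 7 + (59 / 42278584320) * v ^ 8 + (2087 / 761014517760) * v ^ 9 + (187 / 1902536294400) * v ^ 10 := by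
    simp only [Tm, PuF, Nat.factorial, mul_one]
    push_cast
    ring
  have h2 : 0 ≤ (0 / 1) * v ^ 2 + (1 / 402653184) * v ^ 3 + (1 / 805306368) * v ^ 4 + (1 / 2013265920) * v ^ 5 + (11 / 3019898880) * v ^ 6 + (1 / 84557168640) * v ^ 7 + (59 / 42278584320) * v ^ 8 + (2087 / 761014517760) * v ^ 9 + (187 / 1902536294400) * v ^ 10 := by positivity
  linarith

theorem R1_lower {v : ℝ} (hv : 0 ≤ v) : v ^ 2 * PlF v ≤ Real.exp (-v) - 1 + v := by
  have h := le_exp_odd 5 hv
  have e : (Tm (2 * 5 + 1) v - 1 + v) - v ^ 2 * PlF v = (0 / 1) * v ^ 2 + (1 / 805306368) * v ^ 3 + (1 / 402653184) * v ^ 4 + (13 / 4026531840) * v ^ 5 + (1 / 12079595520) * v ^ 6 + (157 / 42278584320) * v ^ 7 + (197 / 84557168640) * v ^ 8 + (187 / 190253629440) * v ^ 9 + (13801 / 3805072588800) * v ^ 10 + (42899 / 41855798476800) * v ^ 11 := by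
    simp only [Tm, PlF, Nat.factorial, mul_one]
    push_cast
    ring
  have h2 : 0 ≤ (0 / 1) * v ^ 2 + (1 / 805306368) * v ^ 3 + (1 / 402653184) * v ^ 4 + (13 / 4026531840) * v ^ 5 + (1 / 12079595520) * v ^ 6 + (157 / 42278584320) * v ^ 7 + (197 / 84557168640) * v ^ 8 + (187 / 190253629440) * v ^ 9 + (13801 / 3805072588800) * v ^ 10 + (42899 / 41855798476800) * v ^ 11 := by positivity
  linarith

end PS

end Vale.Agent.Lib.P154
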